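import Mathlib

/-!
# P267 / H378: approximate eigenvectors of a surjective isometry

A surjective linear isometry of a nonzero complex Banach space has an approximate eigenvalue of
modulus one.
-/

open Set Filter Topology Metric

set_option linter.all false

namespace Vale.Agent.P267.H378

variable {V : Type*} [NormedAddCommGroup V] [NormedSpace ℂ V] [CompleteSpace V]

/-- If `T - lam` is bounded below and `T - lam'` is surjective for `lam'` arbitrarily close to
`lam`, then `T - lam` is surjective. -/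
theorem surjective_of_bounded_below {T : V →L[ℂ] V} {lam : ℂ} {c : ℝ} (hc : 0 < c)
    (hb : ∀ v, c * ‖v‖ ≤ ‖T v - lam • v‖)
    (hs : ∀ δ > 0, ∃ mu : ℂ, ‖mu - lam‖ < δ ∧ Function.Surjective (fun v => T v - mu • v)) :
    Function.Surjective (fun v => T v - lam • v) := by
  -- closed range
  let S : V →L[ℂ] V := T - lam • ContinuousLinearMap.id ℂ V
  have hS : ∀ v, S v = T v - lam • v := fun v => by simp [S]
  have hanti : AntilipschitzWith (Real.toNNReal c⁻¹) S := by
    refine AddMonoidHomClass.antilipschitz_of_bound S (fun v => ?_)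
    rw [hS, Real.coe_toNNReal _ (inv_nonneg.2 hc.le)]
    have := hb v
    rw [← div_eq_inv_mul, le_div_iff₀ hc]
    linarith
  have hcl : IsClosed (range S) := hanti.isClosed_range S.uniformContinuous
  have hdense : ∀ w, w ∈ closure (range S) := by
    intro w
    rw [Metric.mem_closure_iff]
    intro ε hε
    set δ : ℝ := min (c / 2) (ε * c / (2 * (‖w‖ + 1))) with hδ
    have hw1 : 0 < ‖w‖ + 1 := by positivity
    have hδ0 : 0 < δ := lt_min (by positivity) (by positivity)
    obtain ⟨mu, hmu, hsurj⟩ := hs δ hδ0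
    obtain ⟨v, hv⟩ := hsurj w
    simp only at hv
    have h1 : S v - w = (mu - lam) • v := by
      rw [hS, ← hv, sub_smul]; abel
    have h2 : c * ‖v‖ ≤ ‖w‖ + ‖mu - lam‖ * ‖v‖ := by
      have h3 : T v - lam • v = w + (mu - lam) • v := by
        rw [← hv, sub_smul]; abel
      calc c * ‖v‖ ≤ ‖T v - lam • v‖ := hb v
        _ = ‖w + (mu - lam) • v‖ := by rw [h3]
        _ ≤ ‖w‖ + ‖(mu - lam) • v‖ := norm_add_le _ _
        _ = ‖w‖ + ‖mu - lam‖ * ‖v‖ := by rw [norm_smul]
    have h4 : ‖mu - lam‖ ≤ c / 2 := hmu.le.trans (min_le_left _ _)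
    have h5 : ‖v‖ ≤ 2 * ‖w‖ / c := by
      rw [le_div_iff₀ hc]
      have : ‖mu - lam‖ * ‖v‖ ≤ c / 2 * ‖v‖ := mul_le_mul_of_nonneg_right h4 (norm_nonneg _)
      linarith
    refine ⟨S v, mem_range_self _, ?_⟩
    rw [dist_comm, dist_eq_norm, h1, norm_smul]
    have h6 : ‖mu - lam‖ < ε * c / (2 * (‖w‖ + 1)) := hmu.trans_le (min_le_right _ _)
    calc ‖mu - lam‖ * ‖v‖ ≤ ‖mu - lam‖ * (2 * ‖w‖ / c) :=
          mul_le_mul_of_nonneg_left h5 (norm_nonneg _)
      _ ≤ (ε * c / (2 * (‖w‖ + 1))) * (2 * ‖w‖ / c) :=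
          mul_le_mul_of_nonneg_right h6.le (by positivity)
      _ = ε * (‖w‖ / (‖w‖ + 1)) := by field_simp
      _ < ε * 1 := by
          refine mul_lt_mul_of_pos_left ?_ hε
          rw [div_lt_one hw1]; linarith
      _ = ε := mul_one ε
  intro w
  have := hdense w
  rw [hcl.closure_eq] at this
  obtain ⟨v, hv⟩ := this
  exact ⟨v, by rw [← hv, hS]⟩

/-- **Approximate eigenvectors.** -/
theorem exists_approx_eigenvector [Nontrivial V] (T : V ≃ₗᵢ[ℂ] V) :
    ∃ lam : ℂ, ‖lam‖ = 1 ∧ ∀ ε > 0, ∃ v : V, ‖v‖ = 1 ∧ ‖T v - lam • v‖ < ε := by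
  classical
  let A : V →L[ℂ] V := (T.toContinuousLinearEquiv : V →L[ℂ] V)
  have hA : ∀ v, A v = T v := fun v => rfl
  -- for `‖mu‖ ≠ 1` the operator `A - mu` is bijective
  have hnorm : ‖A‖ ≤ 1 := by
    refine ContinuousLinearMap.opNorm_le_bound _ zero_le_one (fun v => ?_)
    rw [hA, T.norm_map, one_mul]
  have hout : ∀ mu : ℂ, 1 < ‖mu‖ → mu ∉ spectrum ℂ A := by
    intro mu hmu hcon
    have := spectrum.norm_le_norm_of_mem hcon
    linarith
  have hin : ∀ mu : ℂ, ‖mu‖ < 1 → mu ∉ spectrum ℂ A := by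
    intro mu hmu hcon
    rw [spectrum.mem_iff] at hcon
    apply hcon
    let B : V →L[ℂ] V := (T.symm.toContinuousLinearEquiv : V →L[ℂ] V)
    have hB : ∀ v, B v = T.symm v := fun v => rfl
    have hBn : ‖B‖ ≤ 1 := by
      refine ContinuousLinearMap.opNorm_le_bound _ zero_le_one (fun v => ?_)
      rw [hB, T.symm.norm_map, one_mul]
    have hAB : A * B = 1 := by
      ext v
      change T (T.symm v) = v
      exact T.apply_symm_apply v
    have hBA : B * A = 1 := by
      ext v
      change T.symm (T v) = v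
      exact T.symm_apply_apply v
    have hu : IsUnit A := ⟨⟨A, B, hAB, hBA⟩, rfl⟩
    have hsmall : ‖mu • B‖ < 1 := by
      calc ‖mu • B‖ ≤ ‖mu‖ * ‖B‖ := ContinuousLinearMap.opNorm_smul_le _ _
        _ ≤ ‖mu‖ * 1 := mul_le_mul_of_nonneg_left hBn (norm_nonneg _)
        _ < 1 := by rw [mul_one]; exact hmu
    have hu2 : IsUnit (1 - mu • B) := isUnit_one_sub_of_norm_lt_one hsmall
    have h3 : algebraMap ℂ (V →L[ℂ] V) mu - A = -(A * (1 - mu • B)) := by
      rw [mul_sub, mul_one, mul_smul_comm, hAB, neg_sub, Algebra.algebraMap_eq_smul_one]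
    rw [h3]
    exact (hu.mul hu2).neg
  obtain ⟨lam, hlam⟩ := spectrum.nonempty A
  have hl1 : ‖lam‖ = 1 := by
    rcases lt_trichotomy ‖lam‖ 1 with h | h | h
    · exact absurd hlam (hin lam h)
    · exact h
    · exact absurd hlam (hout lam h)
  refine ⟨lam, hl1, ?_⟩
  by_contra hcon
  push Not at hcon
  obtain ⟨ε, hε, hv⟩ := hcon
  have hb : ∀ v, ε * ‖v‖ ≤ ‖A v - lam • v‖ := by
    intro v
    by_cases h0 : v = 0
    · simp [h0]
    have hn : ‖v‖ ≠ 0 := norm_ne_zero_iff.2 h0
    have h1 := hv ((‖v‖⁻¹ : ℂ) • v) (by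
      rw [norm_smul, norm_inv, Complex.norm_real, norm_norm, inv_mul_cancel₀ hn])
    rw [map_smul, smul_comm lam, ← smul_sub, norm_smul, norm_inv, Complex.norm_real,
      norm_norm, ← div_eq_inv_mul, le_div_iff₀ (norm_pos_iff.2 h0)] at h1
    exact h1
  have hs : ∀ δ > 0, ∃ mu : ℂ, ‖mu - lam‖ < δ ∧
      Function.Surjective (fun v => A v - mu • v) := by
    intro δ hδ
    refine ⟨((1 + δ / 2 : ℝ) : ℂ) * lam, ?_, ?_⟩
    · have : ((1 + δ / 2 : ℝ) : ℂ) * lam - lam = ((δ / 2 : ℝ) : ℂ) * lam := by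
        push_cast; ring
      rw [this, norm_mul, hl1, mul_one, Complex.norm_real, Real.norm_eq_abs,
        abs_of_pos (by positivity)]
      linarith
    · have hnm : ((1 + δ / 2 : ℝ) : ℂ) * lam ∉ spectrum ℂ A := by
        apply hout
        rw [norm_mul, hl1, mul_one, Complex.norm_real, Real.norm_eq_abs,
          abs_of_pos (by positivity)]
        linarith
      rw [spectrum.notMem_iff] at hnm
      obtain ⟨u, hu⟩ := hnm
      intro w
      refine ⟨-((↑u⁻¹ : V →L[ℂ] V) w), ?_⟩
      have h2 : (u : V →L[ℂ] V) ((↑u⁻¹ : V →L[ℂ] V) w) = w := by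
        have h3 : ((u : V →L[ℂ] V) * (↑u⁻¹ : V →L[ℂ] V)) w = w := by
          rw [Units.mul_inv]; rfl
        exact h3
      have h4 : ∀ z : V, (u : V →L[ℂ] V) z = (((1 + δ / 2 : ℝ) : ℂ) * lam) • z - A z := by
        intro z
        rw [hu, Algebra.algebraMap_eq_smul_one]
        rfl
      rw [h4] at h2
      simp only [map_neg, smul_neg]
      rw [neg_sub_neg]
      exact h2
  have hsurj := surjective_of_bounded_below hε hb hs
  have hinj : Function.Injective (fun v => A v - lam • v) := by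
    intro v w hvw
    have h1 : A (v - w) - lam • (v - w) = 0 := by
      simp only at hvw
      rw [map_sub, smul_sub]
      have := sub_eq_zero.2 hvw
      rw [← this]; abel
    have h2 := hb (v - w)
    rw [h1, norm_zero] at h2
    have h3 : ‖v - w‖ = 0 := by
      have := norm_nonneg (v - w)
      nlinarith
    exact sub_eq_zero.1 (norm_eq_zero.1 h3)
  -- so `A - lam` is invertible
  let S : V →L[ℂ] V := A - lam • ContinuousLinearMap.id ℂ V
  have hSv : ∀ v, S v = A v - lam • v := fun v => by simp [S]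
  have hSi : LinearMap.ker (S : V →ₗ[ℂ] V) = ⊥ := LinearMap.ker_eq_bot.2 (by
    intro v w hvw
    exact hinj (by simpa [hSv] using hvw))
  have hSs : LinearMap.range (S : V →ₗ[ℂ] V) = ⊤ := LinearMap.range_eq_top.2 (by
    intro w
    obtain ⟨v, hv⟩ := hsurj w
    exact ⟨v, by simpa [hSv] using hv⟩)
  let e := ContinuousLinearEquiv.ofBijective S hSi hSs
  have hunit : IsUnit S := by
    refine ⟨⟨S, (e.symm : V →L[ℂ] V), ?_, ?_⟩, rfl⟩
    · ext v
      exact ContinuousLinearEquiv.ofBijective_apply_symm_apply S hSi hSs v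
    · ext v
      exact ContinuousLinearEquiv.ofBijective_symm_apply_apply S hSi hSs v
  rw [spectrum.mem_iff] at hlam
  apply hlam
  have : algebraMap ℂ (V →L[ℂ] V) lam - A = -S := by
    ext v
    simp [Algebra.algebraMap_eq_smul_one, hSv]
  rw [this]
  exact hunit.neg

end Vale.Agent.P267.H378
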