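import Vale.Agent.P267.H378.Met2
import Vale.Agent.P267.H399.Calc2
import Vale.Agent.P267.H667.Weyl
import Vale.Agent.P267.H877.Trans

/-!
# P267 / H378: locally uniform limits of smooth functions whose `∂̄` converges, on open subsets
-/

set_option linter.all false

open Set Filter Topology Metric Complex
open scoped ContDiff Real ComplexConjugate Manifold Matrix ComplexOrder

namespace Vale.Agent.P267.H378

open Vale.Agent.P267.FL Vale.Agent.P267.XT

noncomputable section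

theorem db_eq_dzb {F : Type*} [NormedAddCommGroup F] [NormedSpace ℂ F] (j : Fin 2) (f : C2 → F)
    (z : C2) : H667.db j f z = dzb j f z := by
  rw [H667.db_eq, dzb]
  rw [← Complex.coe_smul]
  norm_num

section

variable {X : Type} [TopologicalSpace X] [ChartedSpace C2 X] [IsManifold 𝓘(ℂ, C2) ω X]
  {h : X → Matrix (Fin 2) (Fin 2) ℂ} {V : Type*} [NormedAddCommGroup V] [InnerProductSpace ℂ V]

theorem loc0_sub' (κ : ℤ) (e : Ch X) (s t : X → V) (z : C2) :
    loc0 κ e (fun y => s y - t y) z = loc0 κ e s z - loc0 κ e t z := by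
  simp only [loc0, smul_sub]

theorem loc1_sub' (κ : ℤ) (e : Ch X) (s t : X → Fin 2 → V) (z : C2) :
    loc1 κ e (fun y => s y - t y) z = loc1 κ e s z - loc1 κ e t z := by
  funext i
  simp only [loc1, smul_sub, Finset.sum_sub_distrib, Pi.sub_apply]

/-- **Limits on open subsets.** If smooth `s n` converge locally uniformly on the open set `W` and
`∂̄ (s n)` converges locally uniformly to a smooth form `G`, then the limit is smooth and
`∂̄ S = G`. -/
theorem limit_on [CompleteSpace V] (hh : IsHerm h) {W : Set X} (hW : IsOpen W) {κ : ℤ}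
    {s : ℕ → X → V} {S : X → V} {G : X → Fin 2 → V}
    (hs : ∀ n, ∀ x ∈ W, At0 ∞ κ (s n) x) (hG : ∀ x ∈ W, At1 ∞ κ G x)
    (h1 : ∀ K ⊆ W, IsCompact K → ∀ ε > 0, ∀ᶠ n in atTop, ∀ x ∈ K,
      n0 h κ (fun y => s n y - S y) x ≤ ε)
    (h2 : ∀ K ⊆ W, IsCompact K → ∀ ε > 0, ∀ᶠ n in atTop, ∀ x ∈ K,
      n1 h κ (fun y => dbar0 κ (s n) y - G y) x ≤ ε) :
    ∀ x ∈ W, At0 ∞ κ S x ∧ dbar0 κ S x = G x := by
  intro x0 hx0
  set e := chartAt C2 x0 with hed
  have he : e ∈ atlas C2 X := chart_mem_atlas C2 x0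
  have hx0e : x0 ∈ e.source := mem_chart_source C2 x0
  set Ω : Set C2 := e.target ∩ e.symm ⁻¹' W with hΩ
  have hΩo : IsOpen Ω := e.symm.isOpen_inter_preimage hW
  have hΩt : Ω ⊆ e.target := inter_subset_left
  have h0Ω : e x0 ∈ Ω := ⟨e.map_source hx0e, by simpa [e.left_inv hx0e] using hx0⟩
  have hsΩ : ∀ n, ContDiffOn ℝ ∞ (loc0 κ e (s n)) Ω := by
    intro n z hz
    have h3 := loc0_contDiffAt_change (κ := κ) he (chart_mem_atlas C2 (e.symm z))
      (e.map_target hz.1) (mem_chart_source C2 (e.symm z)) (hs n (e.symm z) hz.2)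
    rw [e.right_inv hz.1] at h3
    exact h3.contDiffWithinAt
  have hGΩ : ContDiffOn ℝ ∞ (loc1 κ e G) Ω := by
    intro z hz
    have h3 := loc1_contDiffAt_change (κ := κ) he (chart_mem_atlas C2 (e.symm z))
      (e.map_target hz.1) (mem_chart_source C2 (e.symm z)) (hG (e.symm z) hz.2)
    rw [e.right_inv hz.1] at h3
    exact h3.contDiffWithinAt
  have hKW : ∀ K ⊆ Ω, e.symm '' K ⊆ W := by
    rintro K hK _ ⟨z, hz, rfl⟩
    exact (hK hz).2
  have hKc : ∀ K ⊆ Ω, IsCompact K → IsCompact (e.symm '' K) := fun K hK hK' =>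
    hK'.image_of_continuousOn (e.continuousOn_symm.mono (hK.trans hΩt))
  have hl1 : TendstoLocallyUniformlyOn (fun n => loc0 κ e (s n)) (loc0 κ e S) atTop Ω := by
    rw [tendstoLocallyUniformlyOn_iff_forall_isCompact hΩo]
    intro K hK hK'
    rw [Metric.tendstoUniformlyOn_iff]
    intro ε hε
    obtain ⟨C, hC, hCK⟩ := n0_compare hh he (hK.trans hΩt) hK' κ
    filter_upwards [h1 _ (hKW K hK) (hKc K hK hK') (ε / (2 * C)) (by positivity)] with n hn z hz
    have h3 := (hCK z hz (fun y => s n y - S y)).1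
    rw [loc0_sub'] at h3
    rw [dist_comm, dist_eq_norm]
    calc ‖loc0 κ e (s n) z - loc0 κ e S z‖ ≤ C * (ε / (2 * C)) :=
          h3.trans (by gcongr; exact hn _ ⟨z, hz, rfl⟩)
      _ = ε / 2 := by field_simp
      _ < ε := by linarith
  have hl2 : ∀ j, TendstoLocallyUniformlyOn (fun n => H667.db j (loc0 κ e (s n)))
      (fun z => loc1 κ e G z j) atTop Ω := by
    intro j
    rw [tendstoLocallyUniformlyOn_iff_forall_isCompact hΩo]
    intro K hK hK'
    rw [Metric.tendstoUniformlyOn_iff]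
    intro ε hε
    obtain ⟨C, hC, hCK⟩ := n1_compare hh he (hK.trans hΩt) hK' κ
    filter_upwards [h2 _ (hKW K hK) (hKc K hK hK') (ε / (2 * C)) (by positivity)] with n hn z hz
    have h3 := (hCK z hz (fun y => dbar0 κ (s n) y - G y)).1
    rw [loc1_sub'] at h3
    have hd : DifferentiableAt ℝ (loc0 κ e (s n)) z :=
      ((hsΩ n).contDiffAt (hΩo.mem_nhds (hK hz))).differentiableAt (by norm_num)
    rw [dist_comm, dist_eq_norm, db_eq_dzb, ← loc1_dbar0 he (hK hz).1 hd j]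
    calc ‖loc1 κ e (dbar0 κ (s n)) z j - loc1 κ e G z j‖
        ≤ ‖loc1 κ e (dbar0 κ (s n)) z - loc1 κ e G z‖ :=
          norm_le_pi_norm (loc1 κ e (dbar0 κ (s n)) z - loc1 κ e G z) j
      _ ≤ C * (ε / (2 * C)) := h3.trans (by gcongr; exact hn _ ⟨z, hz, rfl⟩)
      _ = ε / 2 := by field_simp
      _ < ε := by linarith
  obtain ⟨h3, h4⟩ := H667.contDiffOn_of_tendsto (m := ⊤) hΩo (by norm_num)
    (fun n => (hsΩ n).of_le (by norm_num)) (fun j => (contDiffOn_pi.1 hGΩ) j) hl1 hl2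
  have hSat : ContDiffAt ℝ ∞ (loc0 κ e S) (e x0) := h3.contDiffAt (hΩo.mem_nhds h0Ω)
  refine ⟨hSat, ?_⟩
  have h5 : ∀ j, loc1 κ e (dbar0 κ S) (e x0) j = loc1 κ e G (e x0) j := by
    intro j
    rw [loc1_dbar0 he h0Ω.1 (hSat.differentiableAt (by norm_num)) j, ← db_eq_dzb]
    exact h4 _ h0Ω j
  have h6 : loc1 κ e (dbar0 κ S) (e x0) = loc1 κ e G (e x0) := funext h5
  rwa [hed, loc1_chartAt, loc1_chartAt] at h6

/-- linear maps and the norm of forms -/
theorem n1_clm_le {x : X} (hh : (h x).PosDef) {V' : Type*} [NormedAddCommGroup V']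
    [InnerProductSpace ℂ V'] (κ : ℤ) (T : V →L[ℂ] V') (a : X → Fin 2 → V) :
    n1 h κ (fun y i => T (a y i)) x ≤ ‖T‖ * n1 h κ a x := by
  obtain ⟨B, hB⟩ := exists_sqrt hh
  have e1 : Real.sqrt (nsq1 h (fun y i => T (a y i)) x) ≤ ‖T‖ * Real.sqrt (nsq1 h a x) := by
    rw [nsq1_eq, nsq1_eq, frame_eq hB, frame_eq hB, PiLp.norm_eq_of_L2, PiLp.norm_eq_of_L2,
      ← Real.sqrt_sq (norm_nonneg T), ← Real.sqrt_mul (sq_nonneg _)]
    refine Real.sqrt_le_sqrt ?_
    rw [Finset.mul_sum]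
    refine Finset.sum_le_sum fun k _ => ?_
    rw [← mul_pow]
    refine pow_le_pow_left₀ (norm_nonneg _) ?_ 2
    have : (∑ i, conj (B k i) • T (a x i)) = T (∑ i, conj (B k i) • a x i) := by
      rw [map_sum]
      simp only [map_smul]
    simp only
    rw [this]
    exact T.le_opNorm _
  rw [n1, n1, ← mul_assoc]
  exact mul_le_mul_of_nonneg_right e1 (Real.rpow_nonneg (pd_det hh).2.le _)

theorem n0_clm_le {x : X} (hh : (h x).PosDef) {V' : Type*} [NormedAddCommGroup V']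
    [InnerProductSpace ℂ V'] (κ : ℤ) (T : V →L[ℂ] V') (s : X → V) :
    n0 h κ (fun y => T (s y)) x ≤ ‖T‖ * n0 h κ s x := by
  rw [n0, n0, ← mul_assoc]
  exact mul_le_mul_of_nonneg_right (T.le_opNorm _) (Real.rpow_nonneg (pd_det hh).2.le _)

end

section

variable {Y X : Type*} [TopologicalSpace Y] [ChartedSpace C2 Y] [TopologicalSpace X]
  [ChartedSpace C2 X] {g : Y → X} {V : Type*} [NormedAddCommGroup V] [NormedSpace ℂ V]

theorem at0_comp (hg : ChartMap g) {n : WithTop ℕ∞} {κ : ℤ} {s : X → V} {y : Y}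
    (hs : At0 n κ s (g y)) : At0 n κ (fun z => s (g z)) y := by
  rw [At0] at hs ⊢
  rw [hg.apply_eq] at hs
  exact hs.congr_of_eventuallyEq (hg.loc0_germ κ s y).symm

theorem at1_comp (hg : ChartMap g) {n : WithTop ℕ∞} {κ : ℤ} {s : X → Fin 2 → V} {y : Y}
    (hs : At1 n κ s (g y)) : At1 n κ (fun z => s (g z)) y := by
  rw [At1] at hs ⊢
  rw [hg.apply_eq] at hs
  exact hs.congr_of_eventuallyEq (hg.loc1_germ κ s y).symm

end

end

end Vale.Agent.P267.H378
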