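import Vale.Agent.P267.H399.Calc
import Vale.Agent.P267.H877.Setup

/-!
# P267 / H378: metric norms in charts
-/

set_option linter.all false

open Set Filter Topology Metric Complex
open scoped ContDiff Real ComplexConjugate Manifold Matrix ComplexOrder

namespace Vale.Agent.P267.H378

open Vale.Agent.P267.FL Vale.Agent.P267.XT

noncomputable section

section Alg

variable {V : Type*} [NormedAddCommGroup V] [InnerProductSpace ℂ V]

/-- norm squared of a covector with respect to a positive matrix -/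
def nsqM (H : Matrix (Fin 2) (Fin 2) ℂ) (a : Fin 2 → V) : ℝ :=
  (∑ i, ∑ j, H⁻¹ j i * inner ℂ (a i) (a j)).re

theorem nsq1_eq {X : Type*} (h : X → Matrix (Fin 2) (Fin 2) ℂ) (a : X → Fin 2 → V) (x : X) :
    nsq1 h a x = nsqM (h x) (a x) := rfl

variable {H : Matrix (Fin 2) (Fin 2) ℂ}

theorem pd_det (hH : H.PosDef) : H.det = (H.det.re : ℂ) ∧ 0 < H.det.re := by
  have h := hH.det_pos
  rw [Complex.lt_def] at h
  refine ⟨Complex.ext rfl ?_, by simpa using h.1⟩
  simpa using h.2.symm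

theorem pd_diag (hH : H.PosDef) (i : Fin 2) : H i i = ((H i i).re : ℂ) ∧ 0 < (H i i).re := by
  have h := hH.diag_pos (i := i)
  rw [Complex.lt_def] at h
  refine ⟨Complex.ext rfl ?_, by simpa using h.1⟩
  simpa using h.2.symm

theorem pd_off (hH : H.PosDef) : H 1 0 = conj (H 0 1) := by
  have h := hH.isHermitian
  have := congrFun (congrFun h 1) 0
  simpa [Matrix.conjTranspose_apply] using this.symm

theorem pd_det_eq (hH : H.PosDef) :
    H.det.re = (H 0 0).re * (H 1 1).re - ‖H 0 1‖ ^ 2 := by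
  rw [Matrix.det_fin_two, pd_off hH, (pd_diag hH 0).1, (pd_diag hH 1).1, Complex.mul_conj,
    Complex.normSq_eq_norm_sq]
  simp only [Complex.sub_re, ← Complex.ofReal_mul, ← Complex.ofReal_pow, Complex.ofReal_re]

theorem nsqM_det (hH : H.PosDef) (a : Fin 2 → V) : nsqM H a * H.det.re =
    (H 1 1).re * ‖a 0‖ ^ 2 + (H 0 0).re * ‖a 1‖ ^ 2 - 2 * (H 0 1 * inner ℂ (a 1) (a 0)).re := by
  obtain ⟨hd1, hd2⟩ := pd_det hH
  obtain ⟨h01, h02⟩ := pd_diag hH 0
  obtain ⟨h11, h12⟩ := pd_diag hH 1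
  have hd0 : H.det ≠ 0 := by
    rw [hd1]
    exact_mod_cast hd2.ne'
  have hinv : H⁻¹ = (H.det)⁻¹ • !![H 1 1, -H 0 1; -H 1 0, H 0 0] := by
    rw [Matrix.inv_def, Matrix.adjugate_fin_two, Ring.inverse_eq_inv']
  have e1 : (∑ i, ∑ j, H⁻¹ j i * inner ℂ (a i) (a j)) * H.det =
      H 1 1 * inner ℂ (a 0) (a 0) + H 0 0 * inner ℂ (a 1) (a 1) -
        (H 0 1 * inner ℂ (a 1) (a 0) + H 1 0 * inner ℂ (a 0) (a 1)) := by
    rw [hinv]
    simp only [Fin.sum_univ_two, Matrix.smul_apply, Matrix.of_apply, Matrix.cons_val',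
      Matrix.cons_val_zero, Matrix.cons_val_one, Matrix.cons_val_fin_one, smul_eq_mul]
    field_simp
    ring
  have e2 : nsqM H a * H.det.re =
      ((∑ i, ∑ j, H⁻¹ j i * inner ℂ (a i) (a j)) * H.det).re := by
    rw [nsqM]
    conv_rhs => rw [hd1]
    rw [Complex.re_mul_ofReal]
  have e3 : H 1 0 * inner ℂ (a 0) (a 1) = conj (H 0 1 * inner ℂ (a 1) (a 0)) := by
    rw [map_mul, inner_conj_symm, pd_off hH]
  rw [e2, e1, e3, inner_self_eq_norm_sq_to_K, inner_self_eq_norm_sq_to_K, h01, h11]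
  simp only [Complex.coe_algebraMap, Complex.sub_re, Complex.add_re, Complex.conj_re,
    ← Complex.ofReal_mul, ← Complex.ofReal_pow, Complex.ofReal_re]
  ring

theorem nsqM_eq (hH : H.PosDef) (a : Fin 2 → V) : nsqM H a =
    ((H 1 1).re * ‖a 0‖ ^ 2 + (H 0 0).re * ‖a 1‖ ^ 2 -
      2 * (H 0 1 * inner ℂ (a 1) (a 0)).re) / H.det.re := by
  rw [← nsqM_det hH a, mul_div_cancel_right₀ _ (pd_det hH).2.ne']

/-- trace of a positive matrix as a real number -/
def trR (H : Matrix (Fin 2) (Fin 2) ℂ) : ℝ := (H 0 0).re + (H 1 1).re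

theorem trR_pos (hH : H.PosDef) : 0 < trR H := add_pos (pd_diag hH 0).2 (pd_diag hH 1).2

theorem le_nsqM (hH : H.PosDef) (a : Fin 2 → V) :
    (‖a 0‖ ^ 2 + ‖a 1‖ ^ 2) / trR H ≤ nsqM H a := by
  have hT := trR_pos hH
  have hD := (pd_det hH).2
  have hp := (pd_diag hH 0).2
  have hr := (pd_diag hH 1).2
  rw [nsqM_eq hH, div_le_div_iff₀ hT hD]
  have h1 : (H 0 1 * inner ℂ (a 1) (a 0)).re ≤ ‖H 0 1‖ * (‖a 1‖ * ‖a 0‖) := by
    refine (Complex.re_le_norm _).trans ?_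
    rw [norm_mul]
    gcongr
    exact norm_inner_le_norm _ _
  rw [pd_det_eq hH]
  rw [trR] at hT ⊢
  set p := (H 0 0).re
  set r := (H 1 1).re
  set q := ‖H 0 1‖
  set A := ‖a 0‖
  set B := ‖a 1‖
  nlinarith [mul_le_mul_of_nonneg_left h1 hT.le, sq_nonneg (r * A - q * B),
    sq_nonneg (p * B - q * A)]

theorem nsqM_le (hH : H.PosDef) (a : Fin 2 → V) :
    nsqM H a ≤ trR H / H.det.re * (‖a 0‖ ^ 2 + ‖a 1‖ ^ 2) := by
  have hT := trR_pos hH
  have hD := (pd_det hH).2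
  have hp := (pd_diag hH 0).2
  have hr := (pd_diag hH 1).2
  rw [nsqM_eq hH, div_mul_eq_mul_div, div_le_div_iff_of_pos_right hD]
  have h1 : -(H 0 1 * inner ℂ (a 1) (a 0)).re ≤ ‖H 0 1‖ * (‖a 1‖ * ‖a 0‖) := by
    refine (neg_le_abs _).trans ((Complex.abs_re_le_norm _).trans ?_)
    rw [norm_mul]
    gcongr
    exact norm_inner_le_norm _ _
  rw [pd_det_eq hH] at hD
  rw [trR] at hT ⊢
  set p := (H 0 0).re
  set r := (H 1 1).re
  set q := ‖H 0 1‖
  set A := ‖a 0‖
  set B := ‖a 1‖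
  have h2 : 0 ≤ p * A ^ 2 + r * B ^ 2 - 2 * q * A * B := by
    have h3 : 0 ≤ p * (p * A ^ 2 + r * B ^ 2 - 2 * q * A * B) := by
      nlinarith [sq_nonneg (p * A - q * B), mul_nonneg hD.le (sq_nonneg B)]
    exact (mul_nonneg_iff_of_pos_left hp).1 h3
  nlinarith

theorem nsqM_nonneg (hH : H.PosDef) (a : Fin 2 → V) : 0 ≤ nsqM H a :=
  (div_nonneg (by positivity) (trR_pos hH).le).trans (le_nsqM hH a)

/-- transformation of the norm squared under a change of coordinates -/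
theorem nsqM_change {J : Matrix (Fin 2) (Fin 2) ℂ} (hJ : J.det ≠ 0) {h : Matrix (Fin 2) (Fin 2) ℂ}
    (δ : ℂ) (a : Fin 2 → V) :
    nsqM (Matrix.of fun i j => ∑ p, ∑ q, (J p i * conj (J q j)) • h p q)
      (fun i => δ • ∑ p, conj (J p i) • a p) = ‖δ‖ ^ 2 * nsqM h a := by
  set Jb : Matrix (Fin 2) (Fin 2) ℂ := J.map conj with hJb
  have hHe : (Matrix.of fun i j => ∑ p, ∑ q, (J p i * conj (J q j)) • h p q) = Jᵀ * h * Jb := by
    ext i j
    simp only [Matrix.of_apply, Matrix.mul_apply, Fin.sum_univ_two, Matrix.transpose_apply,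
      hJb, Matrix.map_apply, smul_eq_mul]
    ring
  rw [hHe]
  have hdb : Jb.det ≠ 0 := by
    have : Jb.det = conj J.det := by
      rw [hJb, Matrix.det_fin_two, Matrix.det_fin_two]
      simp
    rw [this]
    simpa using hJ
  have hG : Jb * (Jᵀ * h * Jb)⁻¹ * Jᵀ = h⁻¹ := by
    rw [Matrix.mul_inv_rev, Matrix.mul_inv_rev]
    have e1 : Jb * Jb⁻¹ = 1 := Matrix.mul_nonsing_inv _ (isUnit_iff_ne_zero.2 hdb)
    have e2 : (Jᵀ)⁻¹ * Jᵀ = 1 :=
      Matrix.nonsing_inv_mul _ (isUnit_iff_ne_zero.2 (by rwa [Matrix.det_transpose]))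
    calc Jb * (Jb⁻¹ * (h⁻¹ * (Jᵀ)⁻¹)) * Jᵀ = (Jb * Jb⁻¹) * h⁻¹ * ((Jᵀ)⁻¹ * Jᵀ) := by
          simp only [Matrix.mul_assoc]
      _ = h⁻¹ := by rw [e1, e2, Matrix.one_mul, Matrix.mul_one]
  set G := (Jᵀ * h * Jb)⁻¹ with hGdef
  simp only [nsqM]
  rw [← hG, ← Complex.re_ofReal_mul]
  congr 1
  have hn : ((‖δ‖ ^ 2 : ℝ) : ℂ) = conj δ * δ := by
    rw [← Complex.normSq_eq_norm_sq, Complex.normSq_eq_conj_mul_self]
  rw [hn, ← hGdef]
  simp only [Fin.sum_univ_two, Matrix.mul_apply, Matrix.transpose_apply, hJb, Matrix.map_apply,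
    inner_smul_left, inner_smul_right, inner_add_left, inner_add_right, Complex.conj_conj]
  ring

end Alg

section Chart

variable {V : Type*} [NormedAddCommGroup V] [InnerProductSpace ℂ V]
variable {X : Type} [TopologicalSpace X] [ChartedSpace C2 X] [IsManifold 𝓘(ℂ, C2) ω X]

/-- the matrix of the metric in the chart `e` at `x` -/
theorem loc11_source {e : Ch X} {x : X} (hx : x ∈ e.source) (h : X → Matrix (Fin 2) (Fin 2) ℂ) :
    loc11 e h (e x) =
      Matrix.of fun i j => ∑ p, ∑ q, (jac e x p i * conj (jac e x q j)) • h x p q := by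
  rw [loc11, e.left_inv hx]

theorem loc11_eq {e : Ch X} {x : X} (hx : x ∈ e.source) (h : X → Matrix (Fin 2) (Fin 2) ℂ) :
    loc11 e h (e x) = (jac e x)ᵀ * h x * (jac e x).map conj := by
  rw [loc11_source hx]
  ext i j
  simp only [Matrix.of_apply, Matrix.mul_apply, Fin.sum_univ_two, Matrix.transpose_apply,
    Matrix.map_apply, smul_eq_mul]
  ring

theorem det_map_conj (J : Matrix (Fin 2) (Fin 2) ℂ) : (J.map conj).det = conj J.det := by
  rw [Matrix.det_fin_two, Matrix.det_fin_two]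
  simp

theorem loc11_det {e : Ch X} {x : X} (hx : x ∈ e.source) (h : X → Matrix (Fin 2) (Fin 2) ℂ) :
    (loc11 e h (e x)).det = ((‖(jac e x).det‖ ^ 2 : ℝ) : ℂ) * (h x).det := by
  rw [loc11_eq hx, Matrix.det_mul, Matrix.det_mul, Matrix.det_transpose, det_map_conj,
    ← Complex.normSq_eq_norm_sq, Complex.normSq_eq_conj_mul_self]
  ring

theorem loc11_posDef {e : Ch X} (he : e ∈ atlas C2 X) {x : X} (hx : x ∈ e.source)
    {h : X → Matrix (Fin 2) (Fin 2) ℂ} (hh : (h x).PosDef) : (loc11 e h (e x)).PosDef := by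
  have hJ : (jac e x).det ≠ 0 := jac_det_ne_zero he hx
  have e1 : (jac e x)ᵀ = ((jac e x).map conj)ᴴ := by
    ext i j
    simp [Matrix.conjTranspose_apply]
  rw [loc11_eq hx, e1]
  refine hh.conjTranspose_mul_mul_same ?_
  have hdb : ((jac e x).map conj).det ≠ 0 := by
    rw [det_map_conj]
    simpa using hJ
  exact Matrix.mulVec_injective_iff_isUnit.2 ((Matrix.isUnit_iff_isUnit_det _).2
    (isUnit_iff_ne_zero.2 hdb))

theorem dh_pos {h : X → Matrix (Fin 2) (Fin 2) ℂ} {x : X} (hh : (h x).PosDef) : 0 < dh h x :=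
  (pd_det hh).2

theorem dh_chart {e : Ch X} {x : X} (hx : x ∈ e.source) (h : X → Matrix (Fin 2) (Fin 2) ℂ) :
    (loc11 e h (e x)).det.re = ‖(jac e x).det‖ ^ 2 * dh h x := by
  rw [loc11_det hx, Complex.re_ofReal_mul, dh]

/-- powers of the density in a chart -/
theorem dh_rpow {e : Ch X} (he : e ∈ atlas C2 X) {x : X} (hx : x ∈ e.source)
    {h : X → Matrix (Fin 2) (Fin 2) ℂ} (hh : (h x).PosDef) (κ : ℤ) :
    ‖(jac e x).det ^ κ‖ * (loc11 e h (e x)).det.re ^ (-(κ : ℝ) / 2) = dh h x ^ (-(κ : ℝ) / 2) := by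
  have hJ : 0 < ‖(jac e x).det‖ := norm_pos_iff.2 (jac_det_ne_zero he hx)
  have hd := dh_pos hh
  rw [dh_chart hx, Real.mul_rpow (by positivity) hd.le, ← mul_assoc, norm_zpow,
    ← Real.rpow_intCast, ← Real.rpow_natCast, ← Real.rpow_mul hJ.le, ← Real.rpow_add hJ]
  have : (κ : ℝ) + ((2 : ℕ) : ℝ) * (-(κ : ℝ) / 2) = 0 := by push_cast; ring
  rw [this, Real.rpow_zero, one_mul]

theorem n0_chart {e : Ch X} (he : e ∈ atlas C2 X) {x : X} (hx : x ∈ e.source)
    {h : X → Matrix (Fin 2) (Fin 2) ℂ} (hh : (h x).PosDef) (κ : ℤ) (s : X → V) :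
    n0 h κ s x = ‖loc0 κ e s (e x)‖ * (loc11 e h (e x)).det.re ^ (-(κ : ℝ) / 2) := by
  rw [n0, ← dh_rpow he hx hh, loc0_source hx, norm_smul]
  ring

theorem n1_chart {e : Ch X} (he : e ∈ atlas C2 X) {x : X} (hx : x ∈ e.source)
    {h : X → Matrix (Fin 2) (Fin 2) ℂ} (hh : (h x).PosDef) (κ : ℤ) (a : X → Fin 2 → V) :
    n1 h κ a x = Real.sqrt (nsqM (loc11 e h (e x)) (loc1 κ e a (e x))) *
      (loc11 e h (e x)).det.re ^ (-(κ : ℝ) / 2) := by
  have e1 : loc1 κ e a (e x) =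
      fun i => (jac e x).det ^ κ • ∑ p, conj (jac e x p i) • a x p := by
    funext i
    rw [loc1_source hx]
  have e2 : nsqM (loc11 e h (e x)) (loc1 κ e a (e x)) =
      ‖(jac e x).det ^ κ‖ ^ 2 * nsqM (h x) (a x) := by
    rw [loc11_source hx, e1]
    exact nsqM_change (jac_det_ne_zero he hx) _ _
  rw [n1, ← dh_rpow he hx hh, e2, nsq1_eq, Real.sqrt_mul (by positivity),
    Real.sqrt_sq (norm_nonneg _)]
  ring

theorem n2_chart {e : Ch X} (he : e ∈ atlas C2 X) {x : X} (hx : x ∈ e.source)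
    {h : X → Matrix (Fin 2) (Fin 2) ℂ} (hh : (h x).PosDef) (κ : ℤ) (b : X → V) :
    n2 h κ b x = ‖loc2 κ e b (e x)‖ * (loc11 e h (e x)).det.re ^ (-((κ : ℝ) + 1) / 2) := by
  have h1 := dh_rpow he hx hh (κ + 1)
  push_cast at h1
  rw [n2, ← h1, loc2_source hx, norm_smul, norm_smul, RCLike.norm_conj,
    zpow_add₀ (jac_det_ne_zero he hx), zpow_one, norm_mul]
  ring

/-- continuity of the metric in a chart -/
theorem IsHerm.contOn {h : X → Matrix (Fin 2) (Fin 2) ℂ} (hh : IsHerm h) {e : Ch X}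
    (he : e ∈ atlas C2 X) (i j : Fin 2) : ContinuousOn (fun z => loc11 e h z i j) e.target :=
  (hh.smooth e he i j).continuousOn

theorem IsHerm.posDef_chart {h : X → Matrix (Fin 2) (Fin 2) ℂ} (hh : IsHerm h) {e : Ch X}
    (he : e ∈ atlas C2 X) {z : C2} (hz : z ∈ e.target) : (loc11 e h z).PosDef := by
  have := loc11_posDef he (e.map_target hz) (hh.posDef (e.symm z))
  rwa [e.right_inv hz] at this

theorem IsHerm.contOn_det {h : X → Matrix (Fin 2) (Fin 2) ℂ} (hh : IsHerm h) {e : Ch X}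
    (he : e ∈ atlas C2 X) : ContinuousOn (fun z => (loc11 e h z).det.re) e.target := by
  simp only [Matrix.det_fin_two]
  exact Complex.continuous_re.comp_continuousOn
    (((IsHerm.contOn hh he 0 0).mul (IsHerm.contOn hh he 1 1)).sub
      ((IsHerm.contOn hh he 0 1).mul (IsHerm.contOn hh he 1 0)))

theorem IsHerm.contOn_rpow {h : X → Matrix (Fin 2) (Fin 2) ℂ} (hh : IsHerm h) {e : Ch X}
    (he : e ∈ atlas C2 X) (t : ℝ) :
    ContinuousOn (fun z => (loc11 e h z).det.re ^ t) e.target := by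
  refine (IsHerm.contOn_det hh he).rpow_const fun z hz => Or.inl ?_
  exact (pd_det (IsHerm.posDef_chart hh he hz)).2.ne'

theorem IsHerm.contOn_nsqM {h : X → Matrix (Fin 2) (Fin 2) ℂ} (hh : IsHerm h) {e : Ch X}
    (he : e ∈ atlas C2 X) {b : C2 → Fin 2 → V} {S : Set C2} (hS : S ⊆ e.target)
    (hb : ContinuousOn b S) : ContinuousOn (fun z => nsqM (loc11 e h z) (b z)) S := by
  have hbi : ∀ i, ContinuousOn (fun z => b z i) S := fun i => (continuousOn_pi.1 hb) i
  have h1 : ContinuousOn (fun z => ((loc11 e h z 1 1).re * ‖b z 0‖ ^ 2 +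
      (loc11 e h z 0 0).re * ‖b z 1‖ ^ 2 -
        2 * (loc11 e h z 0 1 * inner ℂ (b z 1) (b z 0)).re) / (loc11 e h z).det.re) S := by
    refine ContinuousOn.div ?_ ((IsHerm.contOn_det hh he).mono hS) fun z hz =>
      (pd_det (IsHerm.posDef_chart hh he (hS hz))).2.ne'
    have hc : ∀ i j, ContinuousOn (fun z => loc11 e h z i j) S := fun i j =>
      (IsHerm.contOn hh he i j).mono hS
    refine ((Complex.continuous_re.comp_continuousOn (hc 1 1)).mul ((hbi 0).norm.pow 2)).add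
      ((Complex.continuous_re.comp_continuousOn (hc 0 0)).mul ((hbi 1).norm.pow 2)) |>.sub ?_
    exact continuousOn_const.mul (Complex.continuous_re.comp_continuousOn
      ((hc 0 1).mul ((hbi 1).inner (hbi 0))))
  exact h1.congr fun z hz => nsqM_eq (IsHerm.posDef_chart hh he (hS hz)) _

/-- a function on `X` is continuous if it is so in the charts -/
theorem continuous_of_chart {Y : Type*} [TopologicalSpace Y] {F : X → Y}
    (h : ∀ x : X, ∃ G : C2 → Y, ContinuousOn G (chartAt C2 x).target ∧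
      ∀ y ∈ (chartAt C2 x).source, F y = G (chartAt C2 x y)) : Continuous F := by
  rw [continuous_iff_continuousAt]
  intro x
  obtain ⟨G, hG, hFG⟩ := h x
  have h1 : ContinuousAt G (chartAt C2 x x) :=
    hG.continuousAt ((chartAt C2 x).open_target.mem_nhds (mem_chart_target C2 x))
  have h2 : ContinuousAt (fun y => G (chartAt C2 x y)) x :=
    ContinuousAt.comp (f := chartAt C2 x) h1
      ((chartAt C2 x).continuousAt (mem_chart_source C2 x))
  refine h2.congr ?_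
  filter_upwards [chart_source_mem_nhds C2 x] with y hy
  exact (hFG y hy).symm

theorem continuous_n0 {h : X → Matrix (Fin 2) (Fin 2) ℂ} (hh : IsHerm h) {κ : ℤ} {s : X → V}
    (hs : Reg0 0 κ s) : Continuous (n0 h κ s) := by
  refine continuous_of_chart fun x => ⟨fun z => ‖loc0 κ (chartAt C2 x) s z‖ *
    (loc11 (chartAt C2 x) h z).det.re ^ (-(κ : ℝ) / 2), ?_, ?_⟩
  · exact ((hs _ (chart_mem_atlas C2 x)).continuousOn.norm).mul
      (IsHerm.contOn_rpow hh (chart_mem_atlas C2 x) _)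
  · intro y hy
    exact n0_chart (chart_mem_atlas C2 x) hy (hh.posDef y) κ s

theorem continuous_n1 {h : X → Matrix (Fin 2) (Fin 2) ℂ} (hh : IsHerm h) {κ : ℤ}
    {a : X → Fin 2 → V} (ha : Reg1 0 κ a) : Continuous (n1 h κ a) := by
  refine continuous_of_chart fun x =>
    ⟨fun z => Real.sqrt (nsqM (loc11 (chartAt C2 x) h z) (loc1 κ (chartAt C2 x) a z)) *
      (loc11 (chartAt C2 x) h z).det.re ^ (-(κ : ℝ) / 2), ?_, ?_⟩
  · exact (Real.continuous_sqrt.comp_continuousOn (IsHerm.contOn_nsqM hh (chart_mem_atlas C2 x)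
      subset_rfl (ha _ (chart_mem_atlas C2 x)).continuousOn)).mul
      (IsHerm.contOn_rpow hh (chart_mem_atlas C2 x) _)
  · intro y hy
    exact n1_chart (chart_mem_atlas C2 x) hy (hh.posDef y) κ a

theorem continuous_n2 {h : X → Matrix (Fin 2) (Fin 2) ℂ} (hh : IsHerm h) {κ : ℤ} {b : X → V}
    (hb : Reg2 0 κ b) : Continuous (n2 h κ b) := by
  refine continuous_of_chart fun x => ⟨fun z => ‖loc2 κ (chartAt C2 x) b z‖ *
    (loc11 (chartAt C2 x) h z).det.re ^ (-((κ : ℝ) + 1) / 2), ?_, ?_⟩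
  · exact ((hb _ (chart_mem_atlas C2 x)).continuousOn.norm).mul
      (IsHerm.contOn_rpow hh (chart_mem_atlas C2 x) _)
  · intro y hy
    exact n2_chart (chart_mem_atlas C2 x) hy (hh.posDef y) κ b

end Chart

end

end Vale.Agent.P267.H378
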