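import Vale.Agent.P267.H378.Met

/-!
# P267 / H378: metric norms: norm axioms, comparison with chart norms on compact sets
-/

set_option linter.all false

open Set Filter Topology Metric Complex
open scoped ContDiff Real ComplexConjugate Manifold Matrix ComplexOrder

namespace Vale.Agent.P267.H378

open Vale.Agent.P267.FL Vale.Agent.P267.XT

noncomputable section

section Axioms

variable {V : Type*} [NormedAddCommGroup V] [InnerProductSpace ℂ V]
variable {H : Matrix (Fin 2) (Fin 2) ℂ}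

open scoped MatrixOrder Matrix.Norms.L2Operator in
theorem exists_sqrt (hH : H.PosDef) : ∃ B : Matrix (Fin 2) (Fin 2) ℂ, H⁻¹ = Bᴴ * B := by
  obtain ⟨B, hB⟩ := CStarAlgebra.nonneg_iff_eq_star_mul_self.mp hH.inv.posSemidef.nonneg
  exact ⟨B, hB⟩

theorem frame_eq {B : Matrix (Fin 2) (Fin 2) ℂ} (hB : H⁻¹ = Bᴴ * B) (a : Fin 2 → V) :
    Real.sqrt (nsqM H a) =
      ‖WithLp.toLp 2 fun k : Fin 2 => (∑ i, conj (B k i) • a i : V)‖ := by
  rw [PiLp.norm_eq_of_L2]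
  congr 1
  have e1 : ∀ i j, H⁻¹ j i = ∑ k, conj (B k j) * B k i := by
    intro i j
    rw [hB, Matrix.mul_apply]
    rfl
  rw [nsqM]
  have e2 : ∀ k : Fin 2, ((‖(∑ i, conj (B k i) • a i : V)‖ ^ 2 : ℝ) : ℂ) =
      inner ℂ (∑ i, conj (B k i) • a i) (∑ i, conj (B k i) • a i) := by
    intro k
    rw [inner_self_eq_norm_sq_to_K]
    simp
  have e3 : (∑ i, ∑ j, H⁻¹ j i * inner ℂ (a i) (a j)) =
      ((∑ k, ‖(∑ i, conj (B k i) • a i : V)‖ ^ 2 : ℝ) : ℂ) := by
    rw [Complex.ofReal_sum, Finset.sum_congr rfl fun k _ => e2 k]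
    simp only [e1, Fin.sum_univ_two, inner_add_left, inner_add_right, inner_smul_left,
      inner_smul_right, Complex.conj_conj]
    ring
  rw [e3, Complex.ofReal_re]

/-- the norm is a Euclidean norm in a suitable frame -/
theorem exists_frame (hH : H.PosDef) : ∃ B : Matrix (Fin 2) (Fin 2) ℂ, ∀ {V : Type*}
    [NormedAddCommGroup V] [InnerProductSpace ℂ V] (a : Fin 2 → V),
    Real.sqrt (nsqM H a) =
      ‖WithLp.toLp 2 fun k : Fin 2 => (∑ i, conj (B k i) • a i : V)‖ := by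
  obtain ⟨B, hB⟩ := exists_sqrt hH
  exact ⟨B, fun {V} _ _ a => frame_eq hB a⟩

theorem sqrt_nsqM_add_le (hH : H.PosDef) (a b : Fin 2 → V) :
    Real.sqrt (nsqM H (fun i => a i + b i)) ≤ Real.sqrt (nsqM H a) + Real.sqrt (nsqM H b) := by
  obtain ⟨B, hB⟩ := exists_frame hH
  rw [hB, hB, hB]
  have : (WithLp.toLp 2 fun k : Fin 2 => (∑ i, conj (B k i) • (a i + b i) : V)) =
      (WithLp.toLp 2 fun k : Fin 2 => (∑ i, conj (B k i) • a i : V)) +
        (WithLp.toLp 2 fun k : Fin 2 => (∑ i, conj (B k i) • b i : V)) := by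
    rw [← WithLp.toLp_add]
    congr 1
    funext k
    simp [smul_add, Finset.sum_add_distrib]
  rw [this]
  exact norm_add_le _ _

theorem sqrt_nsqM_smul (H : Matrix (Fin 2) (Fin 2) ℂ) (c : ℂ) (a : Fin 2 → V) :
    Real.sqrt (nsqM H (fun i => c • a i)) = ‖c‖ * Real.sqrt (nsqM H a) := by
  have : nsqM H (fun i => c • a i) = ‖c‖ ^ 2 * nsqM H a := by
    have hn : ((‖c‖ ^ 2 : ℝ) : ℂ) = conj c * c := by
      rw [← Complex.normSq_eq_norm_sq, Complex.normSq_eq_conj_mul_self]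
    rw [nsqM, nsqM, ← Complex.re_ofReal_mul, hn]
    congr 1
    simp only [Fin.sum_univ_two, inner_smul_left, inner_smul_right]
    ring
  rw [this, Real.sqrt_mul (by positivity), Real.sqrt_sq (norm_nonneg _)]

variable {X : Type} [TopologicalSpace X] [ChartedSpace C2 X]
variable {h : X → Matrix (Fin 2) (Fin 2) ℂ}

omit [TopologicalSpace X] [ChartedSpace C2 X] in
theorem n1_nonneg {x : X} (hh : (h x).PosDef) (κ : ℤ) (a : X → Fin 2 → V) : 0 ≤ n1 h κ a x :=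
  mul_nonneg (Real.sqrt_nonneg _) (Real.rpow_nonneg (pd_det hh).2.le _)

theorem n0_nonneg {x : X} (hh : (h x).PosDef) (κ : ℤ) (a : X → V) : 0 ≤ n0 h κ a x :=
  mul_nonneg (norm_nonneg _) (Real.rpow_nonneg (pd_det hh).2.le _)

theorem n2_nonneg {x : X} (hh : (h x).PosDef) (κ : ℤ) (a : X → V) : 0 ≤ n2 h κ a x :=
  mul_nonneg (norm_nonneg _) (Real.rpow_nonneg (pd_det hh).2.le _)

theorem n0_add_le {x : X} (hh : (h x).PosDef) (κ : ℤ) (a b : X → V) :
    n0 h κ (fun y => a y + b y) x ≤ n0 h κ a x + n0 h κ b x := by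
  rw [n0, n0, n0, ← add_mul]
  exact mul_le_mul_of_nonneg_right (norm_add_le _ _) (Real.rpow_nonneg (pd_det hh).2.le _)

theorem n0_sub_le {x : X} (hh : (h x).PosDef) (κ : ℤ) (a b : X → V) :
    n0 h κ (fun y => a y - b y) x ≤ n0 h κ a x + n0 h κ b x := by
  rw [n0, n0, n0, ← add_mul]
  exact mul_le_mul_of_nonneg_right (norm_sub_le _ _) (Real.rpow_nonneg (pd_det hh).2.le _)

theorem n0_smul {x : X} (κ : ℤ) (c : X → ℂ) (a : X → V) :
    n0 h κ (fun y => c y • a y) x = ‖c x‖ * n0 h κ a x := by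
  rw [n0, n0, norm_smul, mul_assoc]

theorem n2_add_le {x : X} (hh : (h x).PosDef) (κ : ℤ) (a b : X → V) :
    n2 h κ (fun y => a y + b y) x ≤ n2 h κ a x + n2 h κ b x := by
  rw [n2, n2, n2, ← add_mul]
  exact mul_le_mul_of_nonneg_right (norm_add_le _ _) (Real.rpow_nonneg (pd_det hh).2.le _)

theorem n2_sub_le {x : X} (hh : (h x).PosDef) (κ : ℤ) (a b : X → V) :
    n2 h κ (fun y => a y - b y) x ≤ n2 h κ a x + n2 h κ b x := by
  rw [n2, n2, n2, ← add_mul]
  exact mul_le_mul_of_nonneg_right (norm_sub_le _ _) (Real.rpow_nonneg (pd_det hh).2.le _)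

theorem n2_smul {x : X} (κ : ℤ) (c : X → ℂ) (a : X → V) :
    n2 h κ (fun y => c y • a y) x = ‖c x‖ * n2 h κ a x := by
  rw [n2, n2, norm_smul, mul_assoc]

theorem n1_add_le {x : X} (hh : (h x).PosDef) (κ : ℤ) (a b : X → Fin 2 → V) :
    n1 h κ (fun y i => a y i + b y i) x ≤ n1 h κ a x + n1 h κ b x := by
  rw [n1, n1, n1, ← add_mul]
  exact mul_le_mul_of_nonneg_right (sqrt_nsqM_add_le hh _ _)
    (Real.rpow_nonneg (pd_det hh).2.le _)

theorem n1_smul {x : X} (κ : ℤ) (c : X → ℂ) (a : X → Fin 2 → V) :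
    n1 h κ (fun y i => c y • a y i) x = ‖c x‖ * n1 h κ a x := by
  rw [n1, n1, ← mul_assoc]
  congr 1
  exact sqrt_nsqM_smul (h x) (c x) (a x)

theorem n1_neg {x : X} (κ : ℤ) (a : X → Fin 2 → V) :
    n1 h κ (fun y i => -a y i) x = n1 h κ a x := by
  have := n1_smul (h := h) (x := x) κ (fun _ => -1) a
  simpa using this

theorem n1_sub_le {x : X} (hh : (h x).PosDef) (κ : ℤ) (a b : X → Fin 2 → V) :
    n1 h κ (fun y i => a y i - b y i) x ≤ n1 h κ a x + n1 h κ b x := by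
  have := n1_add_le hh κ a (fun y i => -b y i)
  rw [n1_neg] at this
  simpa only [sub_eq_add_neg] using this

theorem n1_zero {x : X} (κ : ℤ) : n1 h κ (fun _ _ => (0 : V)) x = 0 := by
  have := n1_smul (h := h) (x := x) κ (fun _ => 0) (fun _ _ => (0 : V))
  simpa using this

theorem n1_eq_zero {x : X} (hh : (h x).PosDef) {κ : ℤ} {a : X → Fin 2 → V}
    (h0 : n1 h κ a x = 0) : a x = 0 := by
  have hd : 0 < dh h x ^ (-(κ : ℝ) / 2) := Real.rpow_pos_of_pos (pd_det hh).2 _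
  have h1 : Real.sqrt (nsqM (h x) (a x)) = 0 := by
    rcases mul_eq_zero.1 h0 with h1 | h1
    · exact h1
    · exact absurd h1 hd.ne'
  have h2 : nsqM (h x) (a x) ≤ 0 := Real.sqrt_eq_zero'.1 h1
  have h3 := (le_nsqM hh (a x)).trans h2
  have h4 : ‖a x 0‖ ^ 2 + ‖a x 1‖ ^ 2 ≤ 0 := by
    rwa [div_le_iff₀ (trR_pos hh), zero_mul] at h3
  have h5 : ‖a x 0‖ = 0 := by nlinarith [sq_nonneg ‖a x 0‖, sq_nonneg ‖a x 1‖, norm_nonneg (a x 0)]
  have h6 : ‖a x 1‖ = 0 := by nlinarith [sq_nonneg ‖a x 0‖, sq_nonneg ‖a x 1‖, norm_nonneg (a x 1)]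
  funext i
  fin_cases i
  · exact norm_eq_zero.1 h5
  · exact norm_eq_zero.1 h6

/-- multiplication of a section by a scalar `(0,1)`-form -/
theorem n1_form_smul {x : X} (hh : (h x).PosDef) (κ : ℤ) (a : X → Fin 2 → ℂ) (s : X → V) :
    n1 h κ (fun y i => a y i • s y) x = n1 h 0 a x * n0 h κ s x := by
  have e1 : nsqM (h x) (fun i => a x i • s x) = ‖s x‖ ^ 2 * nsqM (h x) (a x) := by
    rw [nsqM, nsqM, ← Complex.re_ofReal_mul]
    congr 1
    have hn : ((‖s x‖ ^ 2 : ℝ) : ℂ) = inner ℂ (s x) (s x) := by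
      rw [inner_self_eq_norm_sq_to_K]
      simp
    rw [hn]
    simp only [Fin.sum_univ_two, inner_smul_left, inner_smul_right, RCLike.inner_apply]
    ring
  rw [n1, n1, n0, nsq1_eq, nsq1_eq, e1, Real.sqrt_mul (by positivity), Real.sqrt_sq (norm_nonneg _)]
  simp only [Int.cast_zero, neg_zero, zero_div, Real.rpow_zero, mul_one]
  ring

end Axioms

section Compare

variable {V : Type*} [NormedAddCommGroup V] [InnerProductSpace ℂ V]
variable {X : Type} [TopologicalSpace X] [ChartedSpace C2 X] [IsManifold 𝓘(ℂ, C2) ω X]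
variable {h : X → Matrix (Fin 2) (Fin 2) ℂ}

/-- two-sided bound of a positive continuous function on a compact set -/
theorem exists_two_sided {K : Set C2} (hK : IsCompact K) {F : C2 → ℝ} (hF : ContinuousOn F K)
    (hpos : ∀ z ∈ K, 0 < F z) : ∃ C > 0, ∀ z ∈ K, F z ≤ C ∧ 1 ≤ C * F z := by
  rcases K.eq_empty_or_nonempty with rfl | hne
  · exact ⟨1, one_pos, by simp⟩
  obtain ⟨z0, hz0, hmin⟩ := hK.exists_isMinOn hne hF
  obtain ⟨z1, hz1, hmax⟩ := hK.exists_isMaxOn hne hF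
  have h0 := hpos z0 hz0
  have h1 := hpos z1 hz1
  refine ⟨max (F z1) (F z0)⁻¹, lt_max_of_lt_left h1, fun z hz => ⟨(hmax hz).trans (le_max_left _ _), ?_⟩⟩
  have h2 : F z0 ≤ F z := hmin hz
  calc 1 = (F z0)⁻¹ * F z0 := by rw [inv_mul_cancel₀ h0.ne']
    _ ≤ max (F z1) (F z0)⁻¹ * F z := by
        gcongr
        exact le_max_right _ _

theorem n0_compare (hh : IsHerm h) {e : Ch X} (he : e ∈ atlas C2 X) {K : Set C2}
    (hKt : K ⊆ e.target) (hK : IsCompact K) (κ : ℤ) : ∃ C > 0, ∀ z ∈ K, ∀ {V : Type*}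
    [NormedAddCommGroup V] [InnerProductSpace ℂ V] (s : X → V),
      ‖loc0 κ e s z‖ ≤ C * n0 h κ s (e.symm z) ∧ n0 h κ s (e.symm z) ≤ C * ‖loc0 κ e s z‖ := by
  obtain ⟨C, hC, hCK⟩ := exists_two_sided hK
    ((IsHerm.contOn_rpow hh he (-(κ : ℝ) / 2)).mono hKt)
    (fun z hz => Real.rpow_pos_of_pos (pd_det (IsHerm.posDef_chart hh he (hKt hz))).2 _)
  refine ⟨C, hC, fun z hz {V} _ _ s => ?_⟩
  obtain ⟨h1, h2⟩ := hCK z hz
  have e1 := n0_chart he (e.map_target (hKt hz)) (hh.posDef _) κ s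
  rw [e.right_inv (hKt hz)] at e1
  rw [e1]
  set A := ‖loc0 κ e s z‖
  have hA : 0 ≤ A := norm_nonneg _
  constructor <;> nlinarith [mul_le_mul_of_nonneg_left h1 hA, mul_le_mul_of_nonneg_left h2 hA]

theorem n2_compare (hh : IsHerm h) {e : Ch X} (he : e ∈ atlas C2 X) {K : Set C2}
    (hKt : K ⊆ e.target) (hK : IsCompact K) (κ : ℤ) : ∃ C > 0, ∀ z ∈ K, ∀ {V : Type*}
    [NormedAddCommGroup V] [InnerProductSpace ℂ V] (b : X → V),
      ‖loc2 κ e b z‖ ≤ C * n2 h κ b (e.symm z) ∧ n2 h κ b (e.symm z) ≤ C * ‖loc2 κ e b z‖ := by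
  obtain ⟨C, hC, hCK⟩ := exists_two_sided hK
    ((IsHerm.contOn_rpow hh he (-((κ : ℝ) + 1) / 2)).mono hKt)
    (fun z hz => Real.rpow_pos_of_pos (pd_det (IsHerm.posDef_chart hh he (hKt hz))).2 _)
  refine ⟨C, hC, fun z hz {V} _ _ s => ?_⟩
  obtain ⟨h1, h2⟩ := hCK z hz
  have e1 := n2_chart he (e.map_target (hKt hz)) (hh.posDef _) κ s
  rw [e.right_inv (hKt hz)] at e1
  rw [e1]
  set A := ‖loc2 κ e s z‖
  have hA : 0 ≤ A := norm_nonneg _
  constructor <;> nlinarith [mul_le_mul_of_nonneg_left h1 hA, mul_le_mul_of_nonneg_left h2 hA]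

theorem n1_compare (hh : IsHerm h) {e : Ch X} (he : e ∈ atlas C2 X) {K : Set C2}
    (hKt : K ⊆ e.target) (hK : IsCompact K) (κ : ℤ) : ∃ C > 0, ∀ z ∈ K, ∀ {V : Type*}
    [NormedAddCommGroup V] [InnerProductSpace ℂ V] (a : X → Fin 2 → V),
      ‖loc1 κ e a z‖ ≤ C * n1 h κ a (e.symm z) ∧ n1 h κ a (e.symm z) ≤ C * ‖loc1 κ e a z‖ := by
  have hpd : ∀ z ∈ K, (loc11 e h z).PosDef := fun z hz => IsHerm.posDef_chart hh he (hKt hz)
  have htr : ContinuousOn (fun z => trR (loc11 e h z)) K :=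
    (Complex.continuous_re.comp_continuousOn ((IsHerm.contOn hh he 0 0).mono hKt)).add
      (Complex.continuous_re.comp_continuousOn ((IsHerm.contOn hh he 1 1).mono hKt))
  obtain ⟨C, hC, hCK⟩ := exists_two_sided hK
    ((IsHerm.contOn_rpow hh he (-(κ : ℝ) / 2)).mono hKt)
    (fun z hz => Real.rpow_pos_of_pos (pd_det (hpd z hz)).2 _)
  obtain ⟨C1, hC1, hC1K⟩ := exists_two_sided hK
    (Real.continuous_sqrt.comp_continuousOn htr)
    (fun z hz => Real.sqrt_pos.2 (trR_pos (hpd z hz)))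
  obtain ⟨C2', hC2, hC2K⟩ := exists_two_sided hK
    (F := fun z => Real.sqrt (trR (loc11 e h z) / (loc11 e h z).det.re * 2))
    (Real.continuous_sqrt.comp_continuousOn ((htr.div ((IsHerm.contOn_det hh he).mono hKt)
      fun z hz => (pd_det (hpd z hz)).2.ne').mul continuousOn_const))
    (fun z hz => Real.sqrt_pos.2 (mul_pos (div_pos (trR_pos (hpd z hz)) (pd_det (hpd z hz)).2)
      two_pos))
  refine ⟨max (C1 * C) (C2' * C), by positivity, fun z hz {V} _ _ a => ?_⟩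
  obtain ⟨h1, h2⟩ := hCK z hz
  obtain ⟨h3, -⟩ := hC1K z hz
  obtain ⟨h4, -⟩ := hC2K z hz
  have e1 := n1_chart he (e.map_target (hKt hz)) (hh.posDef _) κ a
  rw [e.right_inv (hKt hz)] at e1
  rw [e1]
  set b := loc1 κ e a z with hb
  set D := (loc11 e h z).det.re ^ (-(κ : ℝ) / 2) with hD
  have hDpos : 0 < D := Real.rpow_pos_of_pos (pd_det (hpd z hz)).2 _
  set q := Real.sqrt (nsqM (loc11 e h z) b) with hq
  have hq0 : 0 ≤ q := Real.sqrt_nonneg _
  have hT := trR_pos (hpd z hz)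
  have hbq : ‖b‖ ≤ Real.sqrt (trR (loc11 e h z)) * q := by
    rw [pi_norm_le_iff_of_nonneg (by positivity)]
    intro i
    rw [hq, ← Real.sqrt_mul hT.le]
    refine Real.le_sqrt_of_sq_le ?_
    have h5 := le_nsqM (hpd z hz) b
    rw [div_le_iff₀ hT] at h5
    have h6 : ‖b i‖ ^ 2 ≤ ‖b 0‖ ^ 2 + ‖b 1‖ ^ 2 := by
      fin_cases i <;> simp
    linarith
  have hqb : q ≤ Real.sqrt (trR (loc11 e h z) / (loc11 e h z).det.re * 2) * ‖b‖ := by
    have h5 := nsqM_le (hpd z hz) b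
    have h6 : ‖b 0‖ ≤ ‖b‖ := norm_le_pi_norm b 0
    have h7 : ‖b 1‖ ≤ ‖b‖ := norm_le_pi_norm b 1
    have hTD : 0 < trR (loc11 e h z) / (loc11 e h z).det.re :=
      div_pos hT (pd_det (hpd z hz)).2
    have h8 : nsqM (loc11 e h z) b ≤ trR (loc11 e h z) / (loc11 e h z).det.re * 2 * ‖b‖ ^ 2 := by
      refine h5.trans ?_
      rw [mul_assoc]
      refine mul_le_mul_of_nonneg_left ?_ hTD.le
      nlinarith [norm_nonneg (b 0), norm_nonneg (b 1)]
    calc q ≤ Real.sqrt (trR (loc11 e h z) / (loc11 e h z).det.re * 2 * ‖b‖ ^ 2) :=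
          Real.sqrt_le_sqrt h8
      _ = _ := by rw [Real.sqrt_mul (by positivity), Real.sqrt_sq (norm_nonneg _)]
  have h3' : Real.sqrt (trR (loc11 e h z)) ≤ C1 := h3
  have h4' : Real.sqrt (trR (loc11 e h z) / (loc11 e h z).det.re * 2) ≤ C2' := h4
  have hb0 : 0 ≤ ‖b‖ := norm_nonneg _
  constructor
  · calc ‖b‖ ≤ Real.sqrt (trR (loc11 e h z)) * q := hbq
      _ ≤ C1 * q := by gcongr
      _ ≤ C1 * q * (C * D) := le_mul_of_one_le_right (by positivity) h2
      _ = (C1 * C) * (q * D) := by ring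
      _ ≤ max (C1 * C) (C2' * C) * (q * D) := by
          gcongr
          exact le_max_left _ _
  · calc q * D ≤ (Real.sqrt (trR (loc11 e h z) / (loc11 e h z).det.re * 2) * ‖b‖) * C := by
          gcongr
      _ ≤ (C2' * ‖b‖) * C := by gcongr
      _ = (C2' * C) * ‖b‖ := by ring
      _ ≤ max (C1 * C) (C2' * C) * ‖b‖ := by
          gcongr
          exact le_max_right _ _

end Compare

end

end Vale.Agent.P267.H378
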