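import Vale.Agent.P116.FK.Pom

/-!
# P267 / H378: interior Hölder estimate for the d-bar operator in one variable

`|u| ≤ M`, `|dbar u| ≤ N` on a disc of radius `R` gives `|u z - u w| ≤ C (M + N) |z - w|^(1/2)` on
the disc of radius `R / 2`.
-/

set_option linter.all false

open Set Filter Topology Metric MeasureTheory Complex
open scoped ContDiff Real

namespace Vale.Agent.P267.H378

open Vale.Agent.P116.FK (db pompeiu)

/-- `‖w‖^(-3/2)` is locally integrable in the plane -/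
theorem integrableOn_rpow_ball (R : ℝ) :
    IntegrableOn (fun w : ℂ => ‖w‖ ^ (-(3 / 2) : ℝ)) (ball 0 R) := by
  rcases le_or_gt R 0 with hR | hR
  · rw [Metric.ball_eq_empty.2 hR]; exact integrableOn_empty
  rw [integrableOn_fun_norm_addHaar (volume : Measure ℂ) (f := fun t : ℝ => t ^ (-(3 / 2) : ℝ))]
  have h1 : IntegrableOn (fun y : ℝ => y ^ (-(1 / 2) : ℝ)) (Ioo 0 R) := by
    rw [intervalIntegral.integrableOn_Ioo_rpow_iff hR]
    norm_num
  refine h1.congr_fun ?_ measurableSet_Ioo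
  intro y hy
  simp only [smul_eq_mul, Complex.finrank_real_complex]
  have : (y : ℝ) ^ (2 - 1) = y ^ (1 : ℝ) := by norm_num
  rw [this, ← Real.rpow_add hy.1]
  norm_num

theorem integrableOn_rpow_sub {z : ℂ} {R S : ℝ} (hz : ‖z‖ ≤ S) :
    IntegrableOn (fun w : ℂ => ‖w - z‖ ^ (-(3 / 2) : ℝ)) (ball 0 R) := by
  have h1 := integrableOn_rpow_ball (R + S)
  have h2 : IntegrableOn (fun w : ℂ => ‖w - z‖ ^ (-(3 / 2) : ℝ)) ((fun w => w - z) ⁻¹' ball 0 (R + S)) := by
    have := (measurePreserving_sub_right (volume : Measure ℂ) z).integrableOn_comp_preimage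
      (MeasurableEquiv.subRight z).measurableEmbedding (f := fun w : ℂ => ‖w‖ ^ (-(3 / 2) : ℝ))
      (s := ball 0 (R + S))
    exact this.2 h1
  refine h2.mono_set ?_
  intro w hw
  simp only [mem_preimage, mem_ball_zero_iff] at *
  exact (norm_sub_le w z).trans_lt (by linarith)

/-- a bound for the integral -/
theorem integral_rpow_sub_le {z : ℂ} {R S : ℝ} (hz : ‖z‖ ≤ S) :
    ∫ w in ball 0 R, ‖w - z‖ ^ (-(3 / 2) : ℝ) ≤ ∫ w in ball (0 : ℂ) (R + S), ‖w‖ ^ (-(3 / 2) : ℝ) := by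
  have h1 := integrableOn_rpow_ball (R + S)
  have hmp := measurePreserving_sub_right (volume : Measure ℂ) z
  have hme := (MeasurableEquiv.subRight z).measurableEmbedding
  have h2 : ∫ w in (fun w => w - z) ⁻¹' ball 0 (R + S), ‖w - z‖ ^ (-(3 / 2) : ℝ) =
      ∫ w in ball (0 : ℂ) (R + S), ‖w‖ ^ (-(3 / 2) : ℝ) :=
    hmp.setIntegral_preimage_emb hme (fun w : ℂ => ‖w‖ ^ (-(3 / 2) : ℝ)) _
  rw [← h2]
  refine setIntegral_mono_set ?_ (Eventually.of_forall fun w => Real.rpow_nonneg (norm_nonneg _) _) ?_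
  · exact (hmp.integrableOn_comp_preimage hme (f := fun w : ℂ => ‖w‖ ^ (-(3 / 2) : ℝ))
      (s := ball 0 (R + S))).2 h1
  · refine Eventually.of_forall ?_
    intro w hw
    have hw' : ‖w‖ < R := mem_ball_zero_iff.1 hw
    change w - z ∈ ball (0 : ℂ) (R + S)
    rw [mem_ball_zero_iff]
    exact (norm_sub_le w z).trans_lt (by linarith)

/-- pointwise estimate of the difference of two Cauchy kernels -/
theorem kernel_diff {a b d : ℝ} (ha : 0 < a) (hb : 0 < b) (hd : 0 ≤ d) (hdab : d ≤ a + b) :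
    d / (a * b) ≤ 2 * d ^ (1 / 2 : ℝ) * (a ^ (-(3 / 2) : ℝ) + b ^ (-(3 / 2) : ℝ)) := by
  rcases hd.eq_or_lt with h0 | h0
  · rw [← h0]; simp
  -- wlog structure: `a ≤ b` or `b ≤ a`
  have key : ∀ a b : ℝ, 0 < a → 0 < b → a ≤ b → d ≤ a + b →
      d / (a * b) ≤ 2 * d ^ (1 / 2 : ℝ) * a ^ (-(3 / 2) : ℝ) := by
    intro a b ha hb hab hd2
    have h1 : d ≤ 2 * b := by linarith
    have h2 : d = d ^ (1 / 2 : ℝ) * d ^ (1 / 2 : ℝ) := by
      rw [← Real.rpow_add h0]; norm_num
    have h3 : d ^ (1 / 2 : ℝ) ≤ 2 * b ^ (1 / 2 : ℝ) := by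
      calc d ^ (1 / 2 : ℝ) ≤ (2 * b) ^ (1 / 2 : ℝ) :=
            Real.rpow_le_rpow h0.le h1 (by norm_num)
        _ = 2 ^ (1 / 2 : ℝ) * b ^ (1 / 2 : ℝ) := Real.mul_rpow (by norm_num) hb.le
        _ ≤ 2 * b ^ (1 / 2 : ℝ) := by
            refine mul_le_mul_of_nonneg_right ?_ (Real.rpow_nonneg hb.le _)
            calc (2 : ℝ) ^ (1 / 2 : ℝ) ≤ 2 ^ (1 : ℝ) :=
                  Real.rpow_le_rpow_of_exponent_le (by norm_num) (by norm_num)
              _ = 2 := Real.rpow_one 2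
    have h4 : b ^ (1 / 2 : ℝ) / b ≤ a ^ (-(1 / 2) : ℝ) := by
      have : b ^ (1 / 2 : ℝ) / b = b ^ (-(1 / 2) : ℝ) := by
        nth_rewrite 2 [← Real.rpow_one b]
        rw [← Real.rpow_sub hb]; norm_num
      rw [this]
      exact Real.rpow_le_rpow_of_nonpos ha hab (by norm_num)
    have h5 : a ^ (-(3 / 2) : ℝ) = a ^ (-(1 / 2) : ℝ) / a := by
      nth_rewrite 3 [← Real.rpow_one a]
      rw [← Real.rpow_sub ha]; norm_num
    have hdp : 0 ≤ d ^ (1 / 2 : ℝ) := Real.rpow_nonneg h0.le _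
    calc d / (a * b) = d ^ (1 / 2 : ℝ) * d ^ (1 / 2 : ℝ) / (a * b) := by rw [← h2]
      _ ≤ d ^ (1 / 2 : ℝ) * (2 * b ^ (1 / 2 : ℝ)) / (a * b) := by
          refine div_le_div_of_nonneg_right ?_ (by positivity)
          exact mul_le_mul_of_nonneg_left h3 hdp
      _ = 2 * d ^ (1 / 2 : ℝ) * ((b ^ (1 / 2 : ℝ) / b) / a) := by field_simp
      _ ≤ 2 * d ^ (1 / 2 : ℝ) * (a ^ (-(1 / 2) : ℝ) / a) := by
          refine mul_le_mul_of_nonneg_left ?_ (by positivity)
          exact div_le_div_of_nonneg_right h4 ha.le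
      _ = 2 * d ^ (1 / 2 : ℝ) * a ^ (-(3 / 2) : ℝ) := by rw [h5]
  have hdp : 0 ≤ d ^ (1 / 2 : ℝ) := Real.rpow_nonneg h0.le _
  rcases le_total a b with hab | hab
  · refine (key a b ha hb hab hdab).trans ?_
    refine mul_le_mul_of_nonneg_left ?_ (by positivity)
    have := Real.rpow_nonneg hb.le (-(3 / 2) : ℝ)
    linarith
  · have h6 := key b a hb ha hab (by linarith)
    rw [mul_comm b a] at h6
    refine h6.trans ?_
    refine mul_le_mul_of_nonneg_left ?_ (by positivity)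
    have := Real.rpow_nonneg ha.le (-(3 / 2) : ℝ)
    linarith

/-- Pompeiu at a general point -/
theorem pompeiu_at {v : ℂ → ℂ} (h : ContDiff ℝ 1 v) (hs : HasCompactSupport v) (z : ℂ) :
    ∫ w : ℂ, (w - z)⁻¹ * db v w = -(2 * π) * v z := by
  have h1 : ContDiff ℝ 1 (fun w => v (w + z)) := h.comp (contDiff_id.add contDiff_const)
  have h2 : HasCompactSupport (fun w => v (w + z)) :=
    hs.comp_homeomorph (Homeomorph.addRight z)
  have h3 := pompeiu h1 h2
  have h4 : ∀ w, db (fun w => v (w + z)) w = db v (w + z) := by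
    intro w
    simp only [db, fderiv_comp_add_right]
  simp only [h4, zero_add] at h3
  rw [← h3, ← integral_add_right_eq_self _ z]
  simp only [add_sub_cancel_right]

/-- the main estimate for compactly supported functions -/
theorem holder_compact {v : ℂ → ℂ} (h : ContDiff ℝ 1 v) (hs : HasCompactSupport v) {R D : ℝ}
    (hR : 0 < R) (hD : 0 ≤ D) (hsupp : ∀ w, w ∉ ball (0 : ℂ) R → db v w = 0)
    (hb : ∀ w, ‖db v w‖ ≤ D) {z z' : ℂ} (hz : ‖z‖ ≤ R) (hz' : ‖z'‖ ≤ R) :
    ‖v z - v z'‖ ≤ 2 * (∫ w in ball (0 : ℂ) (R + R), ‖w‖ ^ (-(3 / 2) : ℝ)) * D *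
      ‖z - z'‖ ^ (1 / 2 : ℝ) := by
  set I0 := ∫ w in ball (0 : ℂ) (R + R), ‖w‖ ^ (-(3 / 2) : ℝ) with hI0
  have hI0n : 0 ≤ I0 := integral_nonneg fun w => Real.rpow_nonneg (norm_nonneg _) _
  have hcd : Continuous (db v) := by
    unfold db
    have := h.continuous_fderiv (by norm_num)
    fun_prop
  have hcs : HasCompactSupport (db v) := by
    refine HasCompactSupport.of_support_subset_isCompact (isCompact_closedBall (0 : ℂ) R) ?_
    intro w hw
    by_contra hcon
    exact hw (hsupp w (fun hh => hcon (ball_subset_closedBall hh)))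
  have hint : ∀ y : ℂ, ‖y‖ ≤ R → Integrable (fun w => (w - y)⁻¹ * db v w) := by
    intro y hy
    have h1 : IntegrableOn (fun w : ℂ => ‖w - y‖ ^ (-(3 / 2) : ℝ)) (ball 0 R) :=
      integrableOn_rpow_sub hy
    have h2 : IntegrableOn (fun w => (w - y)⁻¹ * db v w) (ball 0 R) := by
      refine Integrable.mono' (g := fun w => D * (1 + ‖w - y‖ ^ (-(3 / 2) : ℝ))) ?_ ?_ ?_
      · refine Integrable.const_mul (Integrable.add ?_ h1) _
        exact integrableOn_const measure_ball_lt_top.ne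
      · exact (((measurable_id.sub_const y).inv).aestronglyMeasurable.mul
          hcd.aestronglyMeasurable).restrict
      · refine Eventually.of_forall fun w => ?_
        rw [norm_mul, mul_comm]
        refine mul_le_mul (hb w) ?_ (norm_nonneg _) hD
        rw [norm_inv]
        rcases le_total 1 ‖w - y‖ with h3 | h3
        · have : ‖w - y‖⁻¹ ≤ 1 := inv_le_one_of_one_le₀ h3
          have := Real.rpow_nonneg (norm_nonneg (w - y)) (-(3 / 2) : ℝ)
          linarith
        · rcases (norm_nonneg (w - y)).eq_or_lt with h4 | h4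
          · rw [← h4]; simp
          · have : ‖w - y‖⁻¹ ≤ ‖w - y‖ ^ (-(3 / 2) : ℝ) := by
              rw [← Real.rpow_neg_one]
              exact Real.rpow_le_rpow_of_exponent_ge h4 h3 (by norm_num)
            linarith
    rw [← integrableOn_iff_integrable_of_support_subset (s := ball (0 : ℂ) R)]
    · exact h2
    · intro w hw
      by_contra hcon
      exact hw (by simp only [hsupp w hcon, mul_zero])
  have e1 : (2 * π : ℂ) * (v z - v z') = ∫ w, ((w - z')⁻¹ - (w - z)⁻¹) * db v w := by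
    have a1 := pompeiu_at h hs z
    have a2 := pompeiu_at h hs z'
    have a3 : ∫ w, ((w - z')⁻¹ - (w - z)⁻¹) * db v w =
        (∫ w, (w - z')⁻¹ * db v w) - ∫ w, (w - z)⁻¹ * db v w := by
      rw [← integral_sub (hint z' hz') (hint z hz)]
      refine integral_congr_ae (Eventually.of_forall fun w => ?_)
      simp only
      ring
    rw [a3, a1, a2]
    ring
  have e2 : ∫ w, ((w - z')⁻¹ - (w - z)⁻¹) * db v w =
      ∫ w in ball (0 : ℂ) R, ((w - z')⁻¹ - (w - z)⁻¹) * db v w := by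
    rw [setIntegral_eq_integral_of_forall_compl_eq_zero]
    intro w hw
    rw [hsupp w hw, mul_zero]
  have e3 : ‖∫ w in ball (0 : ℂ) R, ((w - z')⁻¹ - (w - z)⁻¹) * db v w‖ ≤
      ∫ w in ball (0 : ℂ) R, D * (2 * ‖z - z'‖ ^ (1 / 2 : ℝ) *
        (‖w - z'‖ ^ (-(3 / 2) : ℝ) + ‖w - z‖ ^ (-(3 / 2) : ℝ))) := by
    refine norm_integral_le_of_norm_le ?_ ?_
    · exact ((((integrableOn_rpow_sub hz').add (integrableOn_rpow_sub hz)).const_mul _).const_mul _)
    · refine ae_restrict_of_ae ?_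
      have hne : ∀ᵐ w : ℂ, w ∉ ({z, z'} : Set ℂ) :=
        (((Set.finite_singleton z').insert z).measure_zero volume : _) |> measure_eq_zero_iff_ae_notMem.1
      filter_upwards [hne] with w hw
      simp only [mem_insert_iff, mem_singleton_iff, not_or] at hw
      obtain ⟨hw1, hw2⟩ := hw
      have n1 : w - z ≠ 0 := sub_ne_zero.2 hw1
      have n2 : w - z' ≠ 0 := sub_ne_zero.2 hw2
      rw [norm_mul, mul_comm]
      refine mul_le_mul (hb w) ?_ (norm_nonneg _) hD
      have : (w - z')⁻¹ - (w - z)⁻¹ = (z' - z) / ((w - z') * (w - z)) := by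
        field_simp
        ring
      rw [this, norm_div, norm_mul, ← norm_neg (z' - z), neg_sub]
      refine kernel_diff (norm_pos_iff.2 n2) (norm_pos_iff.2 n1) (norm_nonneg _) ?_
      calc ‖z - z'‖ = ‖(w - z') - (w - z)‖ := by congr 1; ring
        _ ≤ ‖w - z'‖ + ‖w - z‖ := norm_sub_le _ _
  have e4 : ∫ w in ball (0 : ℂ) R, D * (2 * ‖z - z'‖ ^ (1 / 2 : ℝ) *
        (‖w - z'‖ ^ (-(3 / 2) : ℝ) + ‖w - z‖ ^ (-(3 / 2) : ℝ))) ≤
      D * (2 * ‖z - z'‖ ^ (1 / 2 : ℝ) * (I0 + I0)) := by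
    rw [integral_const_mul, integral_const_mul, integral_add (integrableOn_rpow_sub hz')
      (integrableOn_rpow_sub hz)]
    refine mul_le_mul_of_nonneg_left (mul_le_mul_of_nonneg_left (add_le_add ?_ ?_) ?_) hD
    · exact integral_rpow_sub_le hz'
    · exact integral_rpow_sub_le hz
    · exact mul_nonneg zero_le_two (Real.rpow_nonneg (norm_nonneg _) _)
  have hpi : (3 : ℝ) < π := Real.pi_gt_three
  have e5 : 2 * π * ‖v z - v z'‖ ≤ D * (2 * ‖z - z'‖ ^ (1 / 2 : ℝ) * (I0 + I0)) := by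
    calc 2 * π * ‖v z - v z'‖ = ‖(2 * π : ℂ) * (v z - v z')‖ := by
          rw [norm_mul, norm_mul, Complex.norm_real, Real.norm_eq_abs, abs_of_pos Real.pi_pos]
          norm_num
      _ ≤ _ := by rw [e1, e2]; exact e3.trans e4
  have hdn := Real.rpow_nonneg (norm_nonneg (z - z')) (1 / 2 : ℝ)
  have hvn := norm_nonneg (v z - v z')
  have e6 : 2 * 1 * ‖v z - v z'‖ ≤ 2 * π * ‖v z - v z'‖ := by
    refine mul_le_mul_of_nonneg_right ?_ hvn
    linarith
  nlinarith [e5, e6]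

/-- **Interior Hölder estimate in one variable.** -/
theorem holder_one {R : ℝ} (hR : 0 < R) : ∃ C : ℝ, 0 < C ∧ ∀ (g : ℂ → ℂ) (M N : ℝ), 0 ≤ M → 0 ≤ N →
    ContDiffOn ℝ 1 g (ball 0 R) → (∀ w ∈ ball (0 : ℂ) R, ‖g w‖ ≤ M) →
    (∀ w ∈ ball (0 : ℂ) R, ‖db g w‖ ≤ N) →
    ∀ z ∈ ball (0 : ℂ) (R / 2), ∀ z' ∈ ball (0 : ℂ) (R / 2),
      ‖g z - g z'‖ ≤ C * (M + N) * ‖z - z'‖ ^ (1 / 2 : ℝ) := by
  let f : ContDiffBump (0 : ℂ) := ⟨R / 2, 3 * R / 4, by positivity, by linarith⟩
  let F : ℂ → ℂ := fun w => (f w : ℂ)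
  have hF : ContDiff ℝ 1 F := Complex.ofRealCLM.contDiff.comp f.contDiff
  have hFs : HasCompactSupport F := f.hasCompactSupport.comp_left (g := ((↑) : ℝ → ℂ)) (by simp)
  have hFc : Continuous (db F) := by
    unfold db
    have := hF.continuous_fderiv (by norm_num)
    fun_prop
  have hFds : HasCompactSupport (db F) := by
    have h1 : HasCompactSupport (fderiv ℝ F) := hFs.fderiv (𝕜 := ℝ)
    refine HasCompactSupport.mono h1 (fun w hw => ?_)
    intro hcon
    apply hw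
    simp [db, hcon]
  obtain ⟨K, hK⟩ := hFc.bounded_above_of_compact_support hFds
  have hK0 : 0 ≤ K := (norm_nonneg _).trans (hK 0)
  have hF1 : ∀ w, ‖F w‖ ≤ 1 := by
    intro w
    simp only [F, Complex.norm_real, Real.norm_eq_abs, abs_of_nonneg f.nonneg]
    exact f.le_one
  set I0 := ∫ w in ball (0 : ℂ) (R + R), ‖w‖ ^ (-(3 / 2) : ℝ) with hI0
  have hI0n : 0 ≤ I0 := integral_nonneg fun w => Real.rpow_nonneg (norm_nonneg _) _
  refine ⟨2 * I0 * (1 + K) + 1, by positivity, ?_⟩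
  intro g M N hM hN hg hgM hgN z hz z' hz'
  let v : ℂ → ℂ := fun w => F w * g w
  have hsub : closedBall (0 : ℂ) (3 * R / 4) ⊆ ball 0 R := closedBall_subset_ball (by linarith)
  have hF0 : ∀ w, w ∉ closedBall (0 : ℂ) (3 * R / 4) → ∀ᶠ y in 𝓝 w, F y = 0 := by
    intro w hw
    have : (closedBall (0 : ℂ) (3 * R / 4))ᶜ ∈ 𝓝 w := isClosed_closedBall.isOpen_compl.mem_nhds hw
    filter_upwards [this] with y hy
    simp only [F, Complex.ofReal_eq_zero]
    apply f.zero_of_le_dist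
    change 3 * R / 4 ≤ dist y 0
    have := not_le.1 (fun hh => hy (mem_closedBall.2 hh))
    exact this.le
  have hv : ContDiff ℝ 1 v := by
    rw [contDiff_iff_contDiffAt]
    intro w
    by_cases hw : w ∈ closedBall (0 : ℂ) (3 * R / 4)
    · exact hF.contDiffAt.mul (hg.contDiffAt (isOpen_ball.mem_nhds (hsub hw)))
    · have h1 : v =ᶠ[𝓝 w] fun _ => 0 := by
        filter_upwards [hF0 w hw] with y hy
        simp [v, hy]
      exact contDiffAt_const.congr_of_eventuallyEq h1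
  have hvs : HasCompactSupport v := hFs.mul_right
  have hdb : ∀ w ∈ ball (0 : ℂ) R, db v w = F w * db g w + g w * db F w := by
    intro w hw
    have h1 : HasFDerivAt F (fderiv ℝ F w) w := (hF.differentiable (by norm_num) w).hasFDerivAt
    have h2 : HasFDerivAt g (fderiv ℝ g w) w :=
      ((hg.contDiffAt (isOpen_ball.mem_nhds hw)).differentiableAt (by norm_num)).hasFDerivAt
    have h3 := (h1.mul h2).fderiv
    simp only [db]
    have h4 : fderiv ℝ v w = F w • fderiv ℝ g w + g w • fderiv ℝ F w := h3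
    rw [h4]
    simp only [ContinuousLinearMap.add_apply, ContinuousLinearMap.smul_apply, smul_eq_mul]
    ring
  have hb0 : ∀ w, w ∉ closedBall (0 : ℂ) (3 * R / 4) → db v w = 0 := by
    intro w hw
    have h1 : v =ᶠ[𝓝 w] fun _ => 0 := by
      filter_upwards [hF0 w hw] with y hy
      simp [v, hy]
    simp only [db]
    rw [h1.fderiv_eq]
    simp
  have hD : 0 ≤ N + M * K := by positivity
  have hbound : ∀ w, ‖db v w‖ ≤ N + M * K := by
    intro w
    by_cases hw : w ∈ closedBall (0 : ℂ) (3 * R / 4)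
    · rw [hdb w (hsub hw)]
      refine (norm_add_le _ _).trans ?_
      rw [norm_mul, norm_mul]
      refine add_le_add ?_ ?_
      · calc ‖F w‖ * ‖db g w‖ ≤ 1 * N :=
              mul_le_mul (hF1 w) (hgN w (hsub hw)) (norm_nonneg _) zero_le_one
          _ = N := one_mul N
      · exact mul_le_mul (hgM w (hsub hw)) (hK w) (norm_nonneg _) hM
    · rw [hb0 w hw, norm_zero]; exact hD
  have h1R : ∀ y ∈ ball (0 : ℂ) (R / 2), v y = g y := by
    intro y hy
    have : f y = 1 := f.one_of_mem_closedBall (ball_subset_closedBall hy)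
    simp [v, F, this]
  have hmain := holder_compact hv hvs hR hD (fun w hw => hb0 w (fun hh => hw (hsub hh))) hbound
    (z := z) (z' := z') (by have := mem_ball_zero_iff.1 hz; linarith)
    (by have := mem_ball_zero_iff.1 hz'; linarith)
  rw [h1R z hz, h1R z' hz'] at hmain
  refine hmain.trans ?_
  refine mul_le_mul_of_nonneg_right ?_ (Real.rpow_nonneg (norm_nonneg _) _)
  have : 2 * I0 * (N + M * K) ≤ 2 * I0 * ((1 + K) * (M + N)) := by
    refine mul_le_mul_of_nonneg_left ?_ (by positivity)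
    nlinarith [mul_nonneg hN hK0, mul_nonneg hM hK0]
  nlinarith

end Vale.Agent.P267.H378
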